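import Mathlib

/-!
P181: numbers for almost all partitions, `10^8 a log^2 a ≤ b ≤ a^(8/7)`.
-/

set_option autoImplicit false

namespace Vale.Agent.P181.H388

open Filter

theorem num8 : ∀ᶠ a : ℕ in atTop, ∀ b : ℕ, (10 : ℝ) ^ 8 * (a : ℝ) * (Real.log a) ^ 2 ≤ b →
    (b : ℝ) ≤ (a : ℝ) ^ ((8 : ℝ) / 7) →
    ∃ s : ℕ, 1 ≤ s ∧ 43680 * (s + 1) ^ 2 ≤ b / a ∧
      (10 : ℝ) ^ 6 * (s : ℝ) ^ 13 * ((b / a : ℕ) : ℝ) ^ 6 * Real.log a ≤ a ∧
      a * (a * b + 17) ≤ 2 ^ (s / 4) := by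
  have hE1 : ∀ᶠ a : ℕ in atTop,
      10 ^ 6 * 21 ^ 13 * (Real.log a) ^ 14 ≤ (a : ℝ) ^ ((1 : ℝ) / 7) := by
    have h1 := (isLittleO_log_rpow_rpow_atTop (s := (1 : ℝ) / 7) 14 (by norm_num)).def
      (c := 1 / (10 ^ 6 * 21 ^ 13)) (by norm_num)
    have h2 := (tendsto_natCast_atTop_atTop (R := ℝ)).eventually h1
    filter_upwards [h2, eventually_ge_atTop 1] with a ha ha1
    have haR : (1 : ℝ) ≤ a := by exact_mod_cast ha1
    have hL : 0 ≤ Real.log a := Real.log_nonneg haR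
    rw [Real.norm_of_nonneg (Real.rpow_nonneg hL _),
      Real.norm_of_nonneg (Real.rpow_nonneg (by linarith) _)] at ha
    have h3 : Real.log (a : ℝ) ^ (14 : ℝ) = Real.log (a : ℝ) ^ 14 := by
      rw [← Real.rpow_natCast]
      norm_num
    rw [h3, one_div, inv_mul_eq_div, le_div_iff₀ (by norm_num)] at ha
    linarith
  have hE2 : ∀ᶠ a : ℕ in atTop, 12 ≤ Real.log (a : ℝ) :=
    (Real.tendsto_log_atTop.comp (tendsto_natCast_atTop_atTop (R := ℝ))).eventually_ge_atTop 12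
  filter_upwards [hE1, hE2, eventually_ge_atTop 2] with a h1 h2 ha2 b hb1 hb2
  obtain ⟨L, hL⟩ : ∃ L, L = Real.log (a : ℝ) := ⟨_, rfl⟩
  rw [← hL] at h1 h2 hb1
  have haR : (2 : ℝ) ≤ a := by exact_mod_cast ha2
  have ha0 : (0 : ℝ) < a := by linarith
  obtain ⟨t, ht⟩ : ∃ t, t = (a : ℝ) ^ ((1 : ℝ) / 7) := ⟨_, rfl⟩
  rw [← ht] at h1
  have ht0 : 0 ≤ t := by
    rw [ht]
    exact Real.rpow_nonneg ha0.le _
  have ht7 : t ^ 7 = a := by
    rw [ht, ← Real.rpow_natCast, ← Real.rpow_mul ha0.le]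
    norm_num
  have ht8 : (a : ℝ) ^ ((8 : ℝ) / 7) = a * t := by
    have h3 : ((8 : ℝ) / 7) = 1 + 1 / 7 := by norm_num
    rw [h3, Real.rpow_add ha0, Real.rpow_one, ht]
  obtain ⟨s, hs⟩ : ∃ s : ℕ, s = ⌈20 * L⌉₊ := ⟨_, rfl⟩
  have hs1 : 20 * L ≤ s := by
    rw [hs]
    exact Nat.le_ceil _
  have hs2 : (s : ℝ) < 20 * L + 1 := by
    rw [hs]
    exact Nat.ceil_lt_add_one (by linarith)
  have hs21 : (s : ℝ) + 1 ≤ 21 * L := by linarith
  refine ⟨s, ?_, ?_, ?_, ?_⟩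
  · have h3 : (1 : ℝ) ≤ s := by linarith
    exact_mod_cast h3
  · rw [Nat.le_div_iff_mul_le (by omega)]
    have h3 : ((43680 * (s + 1) ^ 2 * a : ℕ) : ℝ) ≤ (b : ℝ) := by
      push_cast
      refine le_trans ?_ hb1
      have h4 : ((s : ℝ) + 1) ^ 2 ≤ (21 * L) ^ 2 := pow_le_pow_left₀ (by positivity) hs21 2
      have h5 : 43680 * ((s : ℝ) + 1) ^ 2 ≤ 10 ^ 8 * L ^ 2 := by
        have h6 : 0 ≤ L ^ 2 := by positivity
        linarith
      calc 43680 * ((s : ℝ) + 1) ^ 2 * a ≤ 10 ^ 8 * L ^ 2 * a :=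
            mul_le_mul_of_nonneg_right h5 ha0.le
        _ = 10 ^ 8 * a * L ^ 2 := by ring
    exact_mod_cast h3
  · rw [← hL]
    have hB : ((b / a : ℕ) : ℝ) ≤ t := by
      refine le_trans Nat.cast_div_le ?_
      rw [div_le_iff₀ ha0]
      refine hb2.trans (le_of_eq ?_)
      rw [ht8]
      ring
    have h3 : (s : ℝ) ^ 13 ≤ (21 * L) ^ 13 :=
      pow_le_pow_left₀ (Nat.cast_nonneg _) (by linarith) 13
    have h4 : ((b / a : ℕ) : ℝ) ^ 6 ≤ t ^ 6 := pow_le_pow_left₀ (Nat.cast_nonneg _) hB 6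
    have hL0 : 0 ≤ L := by linarith
    calc (10 : ℝ) ^ 6 * (s : ℝ) ^ 13 * ((b / a : ℕ) : ℝ) ^ 6 * L ≤
          10 ^ 6 * (21 * L) ^ 13 * t ^ 6 * L := by
          apply mul_le_mul_of_nonneg_right _ hL0
          exact mul_le_mul (mul_le_mul_of_nonneg_left h3 (by norm_num)) h4 (by positivity)
            (by positivity)
      _ = (10 ^ 6 * 21 ^ 13 * L ^ 14) * t ^ 6 := by ring
      _ ≤ t * t ^ 6 := mul_le_mul_of_nonneg_right h1 (by positivity)
      _ = a := by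
          rw [← ht7]
          ring
  · have hb0 : (1 : ℝ) ≤ b := by
      refine le_trans ?_ hb1
      have h3 : 12 ^ 2 ≤ L ^ 2 := pow_le_pow_left₀ (by norm_num) h2 2
      have h4 : (2 : ℝ) * 12 ^ 2 ≤ a * L ^ 2 := mul_le_mul haR h3 (by norm_num) ha0.le
      linarith
    have hbe : (b : ℝ) ≤ Real.exp (8 / 7 * L) := by
      refine hb2.trans (le_of_eq ?_)
      rw [Real.rpow_def_of_pos ha0, ← hL, mul_comm]
    have hae : (a : ℝ) = Real.exp L := by
      rw [hL, Real.exp_log ha0]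
    have h3 : ((a * (a * b + 17) : ℕ) : ℝ) ≤ ((2 ^ (s / 4) : ℕ) : ℝ) := by
      push_cast
      have h18 : (18 : ℝ) ≤ Real.exp 3 := by
        have h4 := Real.exp_one_gt_d9
        have h5 : Real.exp 3 = Real.exp 1 ^ 3 := by
          rw [← Real.exp_nat_mul]
          norm_num
        rw [h5]
        have h6 : (2.7 : ℝ) ^ 3 ≤ Real.exp 1 ^ 3 := pow_le_pow_left₀ (by norm_num) (by linarith) 3
        have h7 : (2.71 : ℝ) ^ 3 ≤ Real.exp 1 ^ 3 := pow_le_pow_left₀ (by norm_num) (by linarith) 3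
        norm_num at h7
        linarith
      have h4 : (a : ℝ) * (a * b + 17) ≤ 18 * (a * a * b) := by
        have h5 : (1 : ℝ) ≤ a * b := one_le_mul_of_one_le_of_one_le (by linarith) hb0
        have h6 : (a : ℝ) * (a * b + 17) ≤ a * (a * b + 17 * (a * b)) :=
          mul_le_mul_of_nonneg_left (by linarith) ha0.le
        linarith
      have h5 : 18 * ((a : ℝ) * a * b) ≤ Real.exp 3 * (Real.exp L * Real.exp L *
          Real.exp (8 / 7 * L)) := by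
        apply mul_le_mul h18 _ (by positivity) (by positivity)
        apply mul_le_mul _ hbe (by positivity) (by positivity)
        rw [← hae]
      refine h4.trans (h5.trans ?_)
      rw [← Real.exp_add, ← Real.exp_add, ← Real.exp_add]
      have h6 : (2 : ℝ) ^ (s / 4) = Real.exp (((s / 4 : ℕ) : ℝ) * Real.log 2) := by
        rw [Real.exp_nat_mul, Real.exp_log (by norm_num)]
      rw [h6, Real.exp_le_exp]
      have h7 : 5 * L - 3 / 4 ≤ ((s / 4 : ℕ) : ℝ) := by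
        have h8 : s ≤ 4 * (s / 4) + 3 := by omega
        have h9 : (s : ℝ) ≤ 4 * ((s / 4 : ℕ) : ℝ) + 3 := by exact_mod_cast h8
        linarith
      have h8 := Real.log_two_gt_d9
      have h9 : (5 * L - 3 / 4) * 0.6931471803 ≤ ((s / 4 : ℕ) : ℝ) * Real.log 2 :=
        mul_le_mul h7 h8.le (by norm_num) (Nat.cast_nonneg _)
      linarith
    exact_mod_cast h3

end Vale.Agent.P181.H388
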