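import Vale.Agent.P181.T3.Kernel3
import Vale.Agent.P181.Q.Extend

/-!
P181: labelling of the columns of the rows, one threshold, a given set of common columns for every
pair of rows.
-/

set_option autoImplicit false

namespace Vale.Agent.P181.H388

open Finset Vale.Agent.P181.H179 Vale.Agent.P181.Q Vale.Agent.P181.T3

/-- Random block shifts with a given set of common columns for every pair of rows. -/
theorem kernel_sets {a N Q w A : ℕ} (C : Fin a → Finset (Fin N))
    (S : Fin a → Fin a → Finset (Fin N)) (hS : ∀ i j, S i j ⊆ C i ∩ C j) (hQ : 1 ≤ Q) (hw : 1 ≤ w)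
    (hC : ∀ i, (C i).card = Q * w)
    (hb : (a : ℝ) ^ 2 * (Q : ℝ) ^ 2 * (1 - 1 / (2 * (Q : ℝ) ^ 2)) ^ A < 1) :
    ∃ lab : Fin a → Fin N → Fin Q,
      (∀ i k, ((C i).filter (fun t => lab i t = k)).card = w) ∧
      ∀ i j, i ≠ j → A ≤ (S i j).card → ∀ k k', ∃ t ∈ S i j, lab i t = k ∧ lab j t = k' := by
  classical
  haveI : NeZero Q := ⟨by omega⟩
  have hQR : (1 : ℝ) ≤ Q := by exact_mod_cast hQ
  let z0 : Fin w × Fin Q := (⟨0, by omega⟩, ⟨0, by omega⟩)
  have hE : ∀ i, Nonempty ({t // t ∈ C i} ≃ Fin w × Fin Q) := by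
    intro i
    refine ⟨Fintype.equivOfCardEq ?_⟩
    rw [Fintype.card_coe, hC, Fintype.card_prod, Fintype.card_fin, Fintype.card_fin, mul_comm]
  let E : ∀ i, {t // t ∈ C i} ≃ Fin w × Fin Q := fun i => (hE i).some
  let φ : Fin a → Fin N → Fin w × Fin Q := fun i t => if h : t ∈ C i then E i ⟨t, h⟩ else z0
  have hφ : ∀ i t (h : t ∈ C i), φ i t = E i ⟨t, h⟩ := fun i t h => dif_pos h
  have hinj : ∀ i, Set.InjOn (φ i) (C i) := by
    intro i s hs t ht hst
    have hs' : s ∈ C i := hs
    have ht' : t ∈ C i := ht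
    rw [hφ i s hs', hφ i t ht'] at hst
    exact congrArg Subtype.val ((E i).injective hst)
  -- sizes
  have hsize : ∀ (γ : Fin w → Fin Q) i k,
      ((C i).filter (fun t => lb (φ i) γ t = k)).card = w := by
    intro γ i k
    have h1 : ((C i).filter (fun t => lb (φ i) γ t = k)).card =
        (univ.filter (fun r : Fin w × Fin Q => r.2 + γ r.1 = k)).card := by
      apply Finset.card_bij (fun t _ => φ i t)
      · intro t ht
        rw [Finset.mem_filter] at ht ⊢
        exact ⟨Finset.mem_univ _, ht.2⟩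
      · intro s hs t ht hst
        rw [Finset.mem_filter] at hs ht
        exact hinj i hs.1 ht.1 hst
      · intro r hr
        rw [Finset.mem_filter] at hr
        refine ⟨((E i).symm r : Fin N), ?_, ?_⟩
        · rw [Finset.mem_filter]
          refine ⟨((E i).symm r).2, ?_⟩
          rw [lb, hφ i _ ((E i).symm r).2]
          simp only [Subtype.coe_eta, Equiv.apply_symm_apply]
          exact hr.2
        · rw [hφ i _ ((E i).symm r).2]
          simp only [Subtype.coe_eta, Equiv.apply_symm_apply]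
    rw [h1, Finset.card_filter, Fintype.sum_prod_type]
    have h2 : ∀ β : Fin w, ∑ p : Fin Q, (if p + γ β = k then 1 else 0) = 1 := by
      intro β
      rw [Finset.sum_eq_single (k - γ β)]
      · rw [sub_add_cancel, if_pos rfl]
      · intro p _ hp
        rw [if_neg]
        intro h'
        exact hp (by rw [← h', add_sub_cancel_right])
      · intro h
        exact absurd (Finset.mem_univ _) h
    simp only [h2, Finset.sum_const, Finset.card_univ, Fintype.card_fin, smul_eq_mul, mul_one]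
  -- patterns
  set x : ℝ := 1 - 1 / (2 * (Q : ℝ) ^ 2) with hx
  have hQ2 : 1 / (2 * (Q : ℝ) ^ 2) ≤ 1 := by
    rw [div_le_one (by positivity)]
    have : (1 : ℝ) ≤ (Q : ℝ) ^ 2 := one_le_pow₀ hQR
    linarith
  have hx0 : 0 ≤ x := by
    rw [hx]
    linarith
  have hx1 : x ≤ 1 := by
    rw [hx]
    have : 0 ≤ 1 / (2 * (Q : ℝ) ^ 2) := by positivity
    linarith
  let T : Finset ((Fin a × Fin a) × (Fin Q × Fin Q)) :=
    univ.filter (fun p => p.1.1 ≠ p.1.2 ∧ A ≤ (S p.1.1 p.1.2).card)
  let f : (Fin a × Fin a) × (Fin Q × Fin Q) → (Fin a → (Fin w → Fin Q)) → ℝ :=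
    fun p ω => hbad (φ p.1.1) (φ p.1.2) (S p.1.1 p.1.2) p.2.1 p.2.2
      (ω p.1.1) (ω p.1.2)
  obtain ⟨ω, hω⟩ := union_var T f (fun _ => x ^ A) (by
      intro p _ ω
      apply Finset.prod_nonneg
      intro t _
      split_ifs
      · norm_num
      · exact zero_le_one) (by
      intro p hp
      rw [Finset.mem_filter] at hp
      obtain ⟨_, hne, hg⟩ := hp
      have h1 := hbad_sum φ (S p.1.1 p.1.2) hne ((hinj p.1.1).mono (by
        intro t ht
        exact (Finset.mem_inter.1 (hS _ _ ht)).1)) ((hinj p.1.2).mono (by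
        intro t ht
        exact (Finset.mem_inter.1 (hS _ _ ht)).2)) p.2.1 p.2.2
      have h2 : x ^ (S p.1.1 p.1.2).card ≤ x ^ A :=
        pow_le_pow_of_le_one hx0 hx1 hg
      have h3 : (0 : ℝ) ≤ Fintype.card (Fin a → (Fin w → Fin Q)) := Nat.cast_nonneg _
      exact h1.trans (mul_le_mul_of_nonneg_left h2 h3)) (by
      refine lt_of_le_of_lt ?_ hb
      have h1 : ∑ p ∈ T, x ^ A ≤
          ∑ p ∈ (univ : Finset ((Fin a × Fin a) × (Fin Q × Fin Q))), x ^ A := by
        apply Finset.sum_le_sum_of_subset_of_nonneg (Finset.filter_subset _ _)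
        intro p _ _
        positivity
      refine h1.trans (le_of_eq ?_)
      rw [Finset.sum_const, nsmul_eq_mul, Finset.card_univ, Fintype.card_prod, Fintype.card_prod,
        Fintype.card_prod, Fintype.card_fin, Fintype.card_fin]
      push_cast
      ring)
  refine ⟨fun i t => lb (φ i) (ω i) t, fun i k => hsize (ω i) i k, ?_⟩
  intro i j hij hg k k'
  by_contra hno
  push Not at hno
  have h2 := hω ((i, j), (k, k')) (Finset.mem_filter.2 ⟨Finset.mem_univ _, hij, hg⟩)
  have h3 : (1 : ℝ) ≤ f ((i, j), (k, k')) ω := by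
    simp only [f]
    rw [hbad_eq]
    have h5 : ((S i j).filter (fun t =>
        lb (φ i) (ω i) t = k ∧ lb (φ j) (ω j) t = k')).card = 0 := by
      rw [Finset.card_eq_zero, Finset.filter_eq_empty_iff]
      intro t ht h6
      exact hno t ht h6.1 h6.2
    rw [h5, pow_zero]
  linarith

/-- Labels of the columns of the rows, arbitrary sizes. -/
theorem labelOne {a N Q w e A : ℕ} (C : Fin a → Finset (Fin N)) (sz : Fin Q → ℕ)
    (S : Fin a → Fin a → Finset (Fin N)) (hS : ∀ i j, S i j ⊆ C i ∩ C j) (hQ : 1 ≤ Q)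
    (hw : 1 ≤ w) (hsz : ∀ k, w ≤ sz k) (hC : ∀ i, (C i).card = ∑ k, sz k)
    (he : ∑ k, sz k ≤ Q * w + e)
    (hnum : (a : ℝ) ^ 2 * (Q : ℝ) ^ 2 * (1 - 1 / (2 * (Q : ℝ) ^ 2)) ^ (A - 2 * e) < 1) :
    ∃ lab : Fin a → Fin N → Fin Q,
      (∀ i k, ((C i).filter (fun t => lab i t = k)).card = sz k) ∧
      ∀ i j, i ≠ j → A ≤ (S i j).card → ∀ k k', ∃ t ∈ S i j, lab i t = k ∧ lab j t = k' := by
  classical
  have hle : ∀ i, Q * w ≤ (C i).card := by
    intro i
    rw [hC i]
    calc Q * w = ∑ _k : Fin Q, w := by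
          rw [Finset.sum_const, Finset.card_univ, Fintype.card_fin, smul_eq_mul]
      _ ≤ ∑ k, sz k := Finset.sum_le_sum (fun k _ => hsz k)
  choose C' hC'sub hC'card using fun i => Finset.exists_subset_card_eq (hle i)
  have hint : ∀ i j, (S i j).card ≤ (S i j ∩ (C' i ∩ C' j)).card + 2 * e := by
    intro i j
    have h1 : S i j ⊆ (S i j ∩ (C' i ∩ C' j)) ∪ ((C i \ C' i) ∪ (C j \ C' j)) := by
      intro t ht0
      have ht := hS i j ht0
      rw [Finset.mem_inter] at ht
      rw [Finset.mem_union, Finset.mem_union, Finset.mem_inter, Finset.mem_inter,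
        Finset.mem_sdiff, Finset.mem_sdiff]
      by_cases h2 : t ∈ C' i
      · by_cases h3 : t ∈ C' j
        · exact Or.inl ⟨ht0, h2, h3⟩
        · exact Or.inr (Or.inr ⟨ht.2, h3⟩)
      · exact Or.inr (Or.inl ⟨ht.1, h2⟩)
    have h2 := Finset.card_le_card h1
    have h3 := Finset.card_union_le (S i j ∩ (C' i ∩ C' j)) ((C i \ C' i) ∪ (C j \ C' j))
    have h4 := Finset.card_union_le (C i \ C' i) (C j \ C' j)
    have h5 := Finset.card_sdiff_add_card_eq_card (hC'sub i)
    have h6 := Finset.card_sdiff_add_card_eq_card (hC'sub j)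
    have h7 := hC i
    have h8 := hC j
    have h9 := hC'card i
    have h10 := hC'card j
    omega
  obtain ⟨lab', h1, h2⟩ := kernel_sets C' (fun i j => S i j ∩ (C' i ∩ C' j))
    (fun i j => Finset.inter_subset_right) hQ hw hC'card hnum
  have hext : ∀ i, ∃ f : Fin N → Fin Q, (∀ t ∈ C' i, f t = lab' i t) ∧
      ∀ φ, ((C i).filter (fun t => f t = φ)).card = sz φ := by
    intro i
    apply extend N Q (C i) (C' i) (lab' i) sz (hC'sub i)
    · intro φ
      rw [h1 i φ]
      exact hsz φ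
    · exact (hC i).symm
  choose lab hlab1 hlab2 using hext
  refine ⟨lab, hlab2, ?_⟩
  intro i j hij hc k k'
  obtain ⟨t, ht, h3, h4⟩ := h2 i j hij (by
    have := hint i j
    omega) k k'
  rw [Finset.mem_inter, Finset.mem_inter] at ht
  exact ⟨t, ht.1, (hlab1 i t ht.2.1).trans h3, (hlab1 j t ht.2.2).trans h4⟩

end Vale.Agent.P181.H388
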