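import Vale.Agent.P181.LK.Spec2
import Vale.Agent.P181.GP.Main
import Vale.Agent.P181.BK.Sums
import Vale.Agent.P181.H388.LabelOne

/-!
P181: `b = q a + u` with `u` special groups, row STAR.
-/

set_option autoImplicit false

open scoped TensorProduct

namespace Vale.Agent.P181.H388

open Vale.Agent.P181 Vale.Agent.P181.H280 Vale.Agent.P181.H179 Vale.Agent.P181.H530
  Vale.Agent.P181.LK Vale.Agent.P181.H89 Finset

/-- Numbers with a given threshold. -/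
theorem numA (s q k a A : ℕ) (hs : 1 ≤ s) (hq : 1 ≤ q) (hk : k = s * (18 * s ^ 5 * q ^ 2))
    (ha : 1400 * s ^ 12 * q ^ 4 ≤ a)
    (hAR : 14000 * ((s : ℝ) ^ 12 * (q : ℝ) ^ 6) * Real.log a < A + 1) :
      (a : ℝ) ^ 2 * ((q * (2 * k + 1) : ℕ) : ℝ) ^ 2 *
        (1 - 1 / (2 * ((q * (2 * k + 1) : ℕ) : ℝ) ^ 2)) ^
          (A - 2 * (2 * k * (q * (2 * k + 1) + q))) < 1 := by
  have hsR : (1 : ℝ) ≤ s := by exact_mod_cast hs
  have hqR : (1 : ℝ) ≤ q := by exact_mod_cast hq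
  have haR : 1400 * (s : ℝ) ^ 12 * (q : ℝ) ^ 4 ≤ a := by exact_mod_cast ha
  have hs6 : (1 : ℝ) ≤ (s : ℝ) ^ 6 := one_le_pow₀ hsR
  have hs12 : (1 : ℝ) ≤ (s : ℝ) ^ 12 := one_le_pow₀ hsR
  have hq2 : (1 : ℝ) ≤ (q : ℝ) ^ 2 := one_le_pow₀ hqR
  have hq4 : (1 : ℝ) ≤ (q : ℝ) ^ 4 := one_le_pow₀ hqR
  have ha1400 : (1400 : ℝ) ≤ a := by
    have h1 : (1 : ℝ) * 1 ≤ (s : ℝ) ^ 12 * (q : ℝ) ^ 4 :=
      mul_le_mul hs12 hq4 (by norm_num) (by positivity)
    nlinarith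
  have ha0 : (0 : ℝ) < a := by linarith
  obtain ⟨L, hL⟩ : ∃ L, L = Real.log a := ⟨_, rfl⟩
  have hL1 : 1 ≤ L := by
    rw [hL, Real.le_log_iff_exp_le ha0]
    have := Real.exp_one_lt_d9
    linarith
  rw [← hL] at hAR
  have hkR : (k : ℝ) = 18 * ((s : ℝ) ^ 6 * (q : ℝ) ^ 2) := by
    rw [hk]
    push_cast
    ring
  have hsq : (1 : ℝ) ≤ (s : ℝ) ^ 6 * (q : ℝ) ^ 2 := one_le_mul_of_one_le_of_one_le hs6 hq2
  have hk37 : 2 * (k : ℝ) + 1 ≤ 37 * ((s : ℝ) ^ 6 * (q : ℝ) ^ 2) := by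
    rw [hkR]
    linarith
  have hk0 : (0 : ℝ) ≤ k := Nat.cast_nonneg _
  have hkk : (2 * (k : ℝ) + 1) * (2 * k + 1) ≤ a := by
    refine le_trans (mul_le_mul hk37 hk37 (by positivity) (by positivity)) (le_trans ?_ haR)
    have h1 : 37 * ((s : ℝ) ^ 6 * (q : ℝ) ^ 2) * (37 * ((s : ℝ) ^ 6 * (q : ℝ) ^ 2)) =
        1369 * ((s : ℝ) ^ 12 * (q : ℝ) ^ 4) := by ring
    have h2 : 1400 * (s : ℝ) ^ 12 * (q : ℝ) ^ 4 = 1400 * ((s : ℝ) ^ 12 * (q : ℝ) ^ 4) := by ring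
    rw [h1, h2]
    have : (0 : ℝ) ≤ (s : ℝ) ^ 12 * (q : ℝ) ^ 4 := by positivity
    linarith
  obtain ⟨Q, hQ⟩ : ∃ Q, Q = q * (2 * k + 1) := ⟨_, rfl⟩
  rw [← hQ]
  have hQR : (Q : ℝ) = q * (2 * k + 1) := by
    rw [hQ]
    push_cast
    ring
  have hQ1 : (1 : ℝ) ≤ Q := by
    rw [hQR]
    exact one_le_mul_of_one_le_of_one_le hqR (by linarith)
  have hQ37 : (Q : ℝ) ≤ 37 * ((s : ℝ) ^ 6 * (q : ℝ) ^ 3) := by
    rw [hQR]
    calc (q : ℝ) * (2 * k + 1) ≤ q * (37 * ((s : ℝ) ^ 6 * (q : ℝ) ^ 2)) :=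
          mul_le_mul_of_nonneg_left hk37 (by linarith)
      _ = _ := by ring
  have hQa : (Q : ℝ) ≤ a := by
    refine hQ37.trans (le_trans ?_ haR)
    have h1 : (s : ℝ) ^ 6 * (q : ℝ) ^ 3 ≤ (s : ℝ) ^ 12 * (q : ℝ) ^ 4 :=
      mul_le_mul (pow_le_pow_right₀ hsR (by norm_num)) (pow_le_pow_right₀ hqR (by norm_num))
        (by positivity) (by positivity)
    have : (0 : ℝ) ≤ (s : ℝ) ^ 12 * (q : ℝ) ^ 4 := by positivity
    linarith
  have hZ : (1 : ℝ) ≤ (s : ℝ) ^ 12 * (q : ℝ) ^ 6 :=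
    one_le_mul_of_one_le_of_one_le hs12 (one_le_pow₀ hqR)
  have hQQ : (Q : ℝ) ^ 2 ≤ 1369 * ((s : ℝ) ^ 12 * (q : ℝ) ^ 6) := by
    calc (Q : ℝ) ^ 2 ≤ (37 * ((s : ℝ) ^ 6 * (q : ℝ) ^ 3)) ^ 2 :=
          pow_le_pow_left₀ (by linarith) hQ37 2
      _ = _ := by ring
  -- the error
  obtain ⟨E, hE⟩ : ∃ E, E = 2 * (2 * k * (Q + q)) := ⟨_, rfl⟩
  rw [← hE]
  have hER : (E : ℝ) ≤ 2736 * ((s : ℝ) ^ 12 * (q : ℝ) ^ 6) := by
    have h1 : (E : ℝ) = 4 * k * (Q + q) := by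
      rw [hE]
      push_cast
      ring
    have h2 : (Q : ℝ) + q ≤ 38 * ((s : ℝ) ^ 6 * (q : ℝ) ^ 3) := by
      have h3 : (1 : ℝ) * q ≤ (s : ℝ) ^ 6 * (q : ℝ) ^ 3 :=
        mul_le_mul hs6 (by
          calc (q : ℝ) = q ^ 1 := (pow_one _).symm
            _ ≤ _ := pow_le_pow_right₀ hqR (by norm_num)) (by linarith) (by positivity)
      linarith
    rw [h1, hkR]
    calc 4 * (18 * ((s : ℝ) ^ 6 * (q : ℝ) ^ 2)) * ((Q : ℝ) + q) ≤
        4 * (18 * ((s : ℝ) ^ 6 * (q : ℝ) ^ 2)) * (38 * ((s : ℝ) ^ 6 * (q : ℝ) ^ 3)) :=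
          mul_le_mul_of_nonneg_left h2 (by positivity)
      _ = 2736 * ((s : ℝ) ^ 12 * (q : ℝ) ^ 5) := by ring
      _ ≤ _ := by
        apply mul_le_mul_of_nonneg_left _ (by norm_num)
        exact mul_le_mul_of_nonneg_left (pow_le_pow_right₀ hqR (by norm_num)) (by positivity)
  have hZL : (s : ℝ) ^ 12 * (q : ℝ) ^ 6 ≤ (s : ℝ) ^ 12 * (q : ℝ) ^ 6 * L := by
    calc (s : ℝ) ^ 12 * (q : ℝ) ^ 6 = (s : ℝ) ^ 12 * (q : ℝ) ^ 6 * 1 := (mul_one _).symm
      _ ≤ _ := mul_le_mul_of_nonneg_left hL1 (by positivity)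
  have hZ1 : 1 ≤ (s : ℝ) ^ 12 * (q : ℝ) ^ 6 * L := hZ.trans hZL
  have hEA : (E : ℝ) ≤ A := by linarith
  have hEA' : E ≤ A := by exact_mod_cast hEA
  have hgap : 8 * (Q : ℝ) ^ 2 * L < ((A - E : ℕ) : ℝ) := by
    rw [Nat.cast_sub hEA']
    have h1 : 8 * (Q : ℝ) ^ 2 * L ≤ 8 * (1369 * ((s : ℝ) ^ 12 * (q : ℝ) ^ 6)) * L :=
      mul_le_mul_of_nonneg_right (by linarith) (by linarith)
    linarith
  have hQ2 : 0 < 2 * (Q : ℝ) ^ 2 := by positivity
  have hx1 : 1 - 1 / (2 * (Q : ℝ) ^ 2) ≤ Real.exp (-(1 / (2 * (Q : ℝ) ^ 2))) := by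
    have := Real.add_one_le_exp (-(1 / (2 * (Q : ℝ) ^ 2)))
    linarith
  have hx0 : 0 ≤ 1 - 1 / (2 * (Q : ℝ) ^ 2) := by
    have h1 : 1 / (2 * (Q : ℝ) ^ 2) ≤ 1 := by
      rw [div_le_one hQ2]
      have : (1 : ℝ) ≤ (Q : ℝ) ^ 2 := one_le_pow₀ hQ1
      linarith
    linarith
  have h1 : (1 - 1 / (2 * (Q : ℝ) ^ 2)) ^ (A - E) ≤
      Real.exp (-(((A - E : ℕ) : ℝ) / (2 * (Q : ℝ) ^ 2))) := by
    calc (1 - 1 / (2 * (Q : ℝ) ^ 2)) ^ (A - E) ≤
          Real.exp (-(1 / (2 * (Q : ℝ) ^ 2))) ^ (A - E) := pow_le_pow_left₀ hx0 hx1 _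
      _ = _ := by
          rw [← Real.exp_nat_mul]
          congr 1
          ring
  have h2 : Real.exp (-(((A - E : ℕ) : ℝ) / (2 * (Q : ℝ) ^ 2))) < Real.exp (-(4 * L)) := by
    rw [Real.exp_lt_exp, neg_lt_neg_iff, lt_div_iff₀ hQ2]
    linarith
  have h3 : (a : ℝ) ^ 2 * (Q : ℝ) ^ 2 ≤ Real.exp (4 * L) := by
    have h7 : Real.exp (4 * L) = (a : ℝ) ^ 4 := by
      rw [hL, mul_comm, Real.exp_mul, Real.exp_log ha0]
      norm_cast
    rw [h7]
    calc (a : ℝ) ^ 2 * (Q : ℝ) ^ 2 ≤ (a : ℝ) ^ 2 * (a : ℝ) ^ 2 :=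
          mul_le_mul_of_nonneg_left (pow_le_pow_left₀ (by linarith) hQa 2) (by positivity)
      _ = _ := by ring
  calc (a : ℝ) ^ 2 * (Q : ℝ) ^ 2 * (1 - 1 / (2 * (Q : ℝ) ^ 2)) ^ (A - E) ≤
        Real.exp (4 * L) * (1 - 1 / (2 * (Q : ℝ) ^ 2)) ^ (A - E) :=
          mul_le_mul_of_nonneg_right h3 (pow_nonneg hx0 _)
    _ < Real.exp (4 * L) * Real.exp (-(4 * L)) :=
          mul_lt_mul_of_pos_left (lt_of_le_of_lt h1 h2) (Real.exp_pos _)
    _ = 1 := by rw [← Real.exp_add, add_neg_cancel, Real.exp_zero]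

/-- The relation for a filling with special groups, with given pieces. -/
theorem starCore (hGG : RowGG) (hCLS : GP.RowCLS) {n a q Q s u G d A D X N w e0 : ℕ}
    {l' : Fin N → ℕ} (ty : Fin Q → Bool) (gz : Bool → ℕ)
    (hs : 1 ≤ s) (hq : 2 ≤ q) (hGq : G < q) (hd : 18 * s ^ 5 * q ^ 2 ≤ d) (ha1 : 1 ≤ a)
    (hQ1 : 1 ≤ Q) (hQ : ∀ z, (univ.filter (fun κ => ty κ = z)).card = q * cS (s * d) z)
    (hah : a = cS (s * d) true * gz true + cS (s * d) false * gz false)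
    (hw : 1 ≤ w) (hg : ∀ κ, w ≤ gz (ty κ)) (he : q * a ≤ Q * w + e0)
    (hnum : ((a + u : ℕ) : ℝ) ^ 2 * (Q : ℝ) ^ 2 * (1 - 1 / (2 * (Q : ℝ) ^ 2)) ^ (A - 2 * e0) < 1)
    (hX : s * (s + 1) * A ≤ 2 * X) (hAD : A ≤ D) (hN : N + X ≤ (s + 1) * (q * a))
    (ε : Fin (q * a + u) ≃ Gp a q u) (E : Equiv.Perm (Fin a × Fin (q * a + u)))
    (hE : ∀ i j, (E (i, j)).1 = Sum.elim Prod.fst (fun _ => i) (ε j))
    (l : (Fin a → Fin (q * a + u) → (Fin n → ℂ)) →₀ ℂ)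
    (h0 : arrMap a (q * a + u) E (Fin n → ℂ) (elOf l) = 0)
    (e : Box l' → Fin a) (sp : Box l' → Option (Fin u)) (gr : Fin u → Fin G)
    (h1 : ∀ i, (univ.filter (fun p => e p = i ∧ sp p = none)).card = q * a)
    (h2 : ∀ k i, ∃ p, sp p = some k ∧ e p = i)
    (h3 : ∀ k p p', sp p = some k → sp p' = some k → e p = e p' → p = p')
    (h4 : ∀ k k' : Fin u, k ≠ k' → gr k = gr k' →
      ∃ t v w, sp ⟨t, v⟩ = some k ∧ sp ⟨t, w⟩ = some k')
    (h5 : ∀ k i, D ≤ (univ.filter (fun t : Fin N => (∃ v, sp ⟨t, v⟩ = some k) ∧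
      ∃ w, sp ⟨t, w⟩ = none ∧ e ⟨t, w⟩ = i)).card) :
    ∑ τ : Fin u → Equiv.Perm (Fin a), VV (fullForm l) l' (sprU sp τ e) = 0 := by
  classical
  have hspr : ∀ (τ : Fin u → Equiv.Perm (Fin a)) p, sp p = none → sprU sp τ e p = e p := by
    intro τ p hp
    unfold sprU
    rw [hp]
  have hspr' : ∀ (τ : Fin u → Equiv.Perm (Fin a)) p k, sp p = some k →
      sprU sp τ e p = τ k (e p) := by
    intro τ p k hp
    unfold sprU
    rw [hp]
  by_cases hcol : ∀ t v v', sp ⟨t, v⟩ = none → sp ⟨t, v'⟩ = none → e ⟨t, v⟩ = e ⟨t, v'⟩ → v = v'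
  swap
  · push Not at hcol
    obtain ⟨t, v, v', k1, k2, k3, k4⟩ := hcol
    refine Finset.sum_eq_zero fun τ _ => ?_
    refine VV_anti _ _ t k4 ?_
    rw [hspr τ _ k1, hspr τ _ k2, k3]
  let C : Fin a → Finset (Fin N) := fun i =>
    univ.filter (fun t => ∃ v, sp ⟨t, v⟩ = none ∧ e ⟨t, v⟩ = i)
  have hCm : ∀ i t, t ∈ C i ↔ ∃ v, sp ⟨t, v⟩ = none ∧ e ⟨t, v⟩ = i := fun i t => by
    simp only [C, Finset.mem_filter, Finset.mem_univ, true_and]
  have hbij : ∀ i (R : Fin N → Prop) [DecidablePred R],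
      (univ.filter (fun p : Box l' => (e p = i ∧ sp p = none) ∧ R p.1)).card =
        ((C i).filter R).card := by
    intro i R _
    apply Finset.card_bij (fun p _ => p.1)
    · intro p hp
      rw [Finset.mem_filter] at hp
      rw [Finset.mem_filter, hCm]
      exact ⟨⟨p.2, hp.2.1.2, hp.2.1.1⟩, hp.2.2⟩
    · intro p hp p' hp' h
      rw [Finset.mem_filter] at hp hp'
      obtain ⟨t, v⟩ := p
      obtain ⟨t', v'⟩ := p'
      simp only at h
      subst h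
      rw [hcol t v v' hp.2.1.2 hp'.2.1.2 (hp.2.1.1.trans hp'.2.1.1.symm)]
    · intro t ht
      rw [Finset.mem_filter, hCm] at ht
      obtain ⟨⟨v, hv1, hv2⟩, hR⟩ := ht
      exact ⟨⟨t, v⟩, Finset.mem_filter.2 ⟨Finset.mem_univ _, ⟨hv2, hv1⟩, hR⟩, rfl⟩
  have hC : ∀ i, (C i).card = q * a := by
    intro i
    have k1 := hbij i (fun _ => True)
    simp only [and_true, Finset.filter_true] at k1
    rw [← k1]
    exact h1 i
  -- the columns of the special groups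
  let Sk : Fin u → Finset (Fin N) := fun k => univ.filter (fun t => ∃ v, sp ⟨t, v⟩ = some k)
  have hSkcard : ∀ k, (Sk k).card ≤ a := by
    intro k
    have k1 : ∀ t ∈ Sk k, ∃ v, sp ⟨t, v⟩ = some k := fun t ht => (Finset.mem_filter.1 ht).2
    have k2 : ((univ : Finset (Box l')).filter (fun p => sp p = some k)).card ≤ a := by
      have k3 := Finset.card_le_card_of_injOn
        (s := (univ : Finset (Box l')).filter (fun p => sp p = some k))
        (t := (univ : Finset (Fin a))) (fun p => e p) (fun _ _ => Finset.mem_univ _) (by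
          intro p hp p' hp' h
          exact h3 k p p' (Finset.mem_filter.1 hp).2 (Finset.mem_filter.1 hp').2 h)
      rwa [Finset.card_univ, Fintype.card_fin] at k3
    refine le_trans ?_ k2
    have k4 : Sk k ⊆ ((univ : Finset (Box l')).filter (fun p => sp p = some k)).image
        (fun p => p.1) := by
      intro t ht
      obtain ⟨v, hv⟩ := k1 t ht
      exact Finset.mem_image.2 ⟨⟨t, v⟩, Finset.mem_filter.2 ⟨Finset.mem_univ _, hv⟩, rfl⟩
    exact (Finset.card_le_card k4).trans Finset.card_image_le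
  have hqa : a ≤ q * a := Nat.le_mul_of_pos_left a (by omega)
  have hvirt : ∀ k : Fin u, ∃ Y : Finset (Fin N), Sk k ⊆ Y ∧ Y.card = q * a := by
    intro k
    obtain ⟨Y, k1, k2⟩ := Finset.exists_superset_card_eq (n := q * a)
      ((hSkcard k).trans hqa) (by
        have k1 := Finset.card_le_univ (C ⟨0, by omega⟩)
        rw [hC] at k1
        exact k1)
    exact ⟨Y, k1, k2⟩
  choose Yv hYv1 hYv2 using hvirt
  let T : Fin a → Fin u → Finset (Fin N) := fun i k => univ.filter (fun t : Fin N =>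
    (∃ v, sp ⟨t, v⟩ = some k) ∧ ∃ w, sp ⟨t, w⟩ = none ∧ e ⟨t, w⟩ = i)
  let Cf : Fin (a + u) → Finset (Fin N) := Fin.addCases C Yv
  let Sf : Fin (a + u) → Fin (a + u) → Finset (Fin N) := fun i j =>
    Fin.addCases (motive := fun _ => Finset (Fin N)) (fun i' => Fin.addCases
      (motive := fun _ => Finset (Fin N)) (fun j' => C i' ∩ C j')
      (fun k => T i' k) j) (fun _ => ∅) i
  have hsum : ∑ κ, gz (ty κ) = q * a := by
    rw [H89.sum_szS ty gz hQ, ← hah]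
  obtain ⟨lab', hl1, hl2⟩ := labelOne (w := w) (e := e0) (A := A) Cf (fun κ => gz (ty κ)) Sf (by
      intro i j
      refine Fin.addCases (fun i' => ?_) (fun k => ?_) i
      · refine Fin.addCases (fun j' => ?_) (fun k => ?_) j
        · simp only [Sf, Cf, Fin.addCases_left]
          exact Finset.Subset.refl _
        · simp only [Sf, Cf, Fin.addCases_left, Fin.addCases_right]
          intro t ht
          obtain ⟨k1, k2⟩ := (Finset.mem_filter.1 ht).2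
          rw [Finset.mem_inter]
          exact ⟨(hCm _ _).2 k2, hYv1 k (Finset.mem_filter.2 ⟨Finset.mem_univ _, k1⟩)⟩
      · simp only [Sf, Fin.addCases_right]
        exact Finset.empty_subset _) hQ1 hw hg (by
      intro i
      rw [hsum]
      refine Fin.addCases (fun i' => ?_) (fun k => ?_) i
      · simp only [Cf, Fin.addCases_left]
        exact hC i'
      · simp only [Cf, Fin.addCases_right]
        exact hYv2 k) (by rw [hsum]; exact he) hnum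
  obtain ⟨lab, hlab⟩ : ∃ lab : Fin a → Fin N → Fin Q, lab = fun i => lab' (Fin.castAdd u i) :=
    ⟨_, rfl⟩
  have hsize : ∀ i κ, ((C i).filter (fun t => lab i t = κ)).card = gz (ty κ) := by
    intro i κ
    have k1 := hl1 (Fin.castAdd u i) κ
    simp only [Cf, Fin.addCases_left] at k1
    rw [hlab]
    exact k1
  have hpair : ∀ i j, i ≠ j → A ≤ (C i ∩ C j).card → ∀ κ κ', ∃ t ∈ C i ∩ C j,
      lab i t = κ ∧ lab j t = κ' := by
    intro i j hij hA κ κ'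
    have k1 := hl2 (Fin.castAdd u i) (Fin.castAdd u j) (by
      intro h
      exact hij (Fin.castAdd_injective a u h)) (by
      simp only [Sf, Fin.addCases_left]
      exact hA) κ κ'
    simp only [Sf, Fin.addCases_left] at k1
    rw [hlab]
    exact k1
  have hwin : ∀ i k κ, ∃ t ∈ T i k, lab i t = κ := by
    intro i k κ
    obtain ⟨t, ht, k2, _⟩ := hl2 (Fin.castAdd u i) (Fin.natAdd a k) (by
      intro h
      have k2 := congrArg Fin.val h
      simp only [Fin.val_castAdd, Fin.val_natAdd] at k2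
      omega) (by
      simp only [Sf, Fin.addCases_left, Fin.addCases_right]
      exact hAD.trans (h5 k i)) κ κ
    simp only [Sf, Fin.addCases_left, Fin.addCases_right] at ht
    exact ⟨t, ht, by rw [hlab]; exact k2⟩
  -- the groups of the boxes
  obtain ⟨fm, hfm⟩ : ∃ fm : Box l' → (Fin a × Fin Q) ⊕ Fin u, fm = fun p =>
      (sp p).elim (Sum.inl (e p, lab (e p) p.1)) Sum.inr := ⟨_, rfl⟩
  have hfn : ∀ p, sp p = none → fm p = Sum.inl (e p, lab (e p) p.1) := by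
    intro p hp
    rw [hfm]
    simp only [hp, Option.elim_none]
  have hfs : ∀ p k, sp p = some k → fm p = Sum.inr k := by
    intro p k hp
    rw [hfm]
    simp only [hp, Option.elim_some]
  have hfr : ∀ p k, fm p = Sum.inr k ↔ sp p = some k := by
    intro p k
    constructor
    · intro h
      rcases hp : sp p with _ | k'
      · rw [hfn p hp] at h
        exact absurd h Sum.inl_ne_inr
      · rw [hfs p k' hp] at h
        rw [Sum.inr_injective h]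
    · exact hfs p k
  have hfl : ∀ p i κ, fm p = Sum.inl (i, κ) ↔ (e p = i ∧ sp p = none) ∧ lab i p.1 = κ := by
    intro p i κ
    constructor
    · intro h
      rcases hp : sp p with _ | k'
      · rw [hfn p hp] at h
        have k4 := Sum.inl_injective h
        have k5 := congrArg Prod.fst k4
        have k6 := congrArg Prod.snd k4
        simp only at k5 k6
        subst k5
        exact ⟨⟨rfl, rfl⟩, k6⟩
      · rw [hfs p k' hp] at h
        exact absurd h.symm Sum.inl_ne_inr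
    · rintro ⟨⟨rfl, hp⟩, rfl⟩
      exact hfn p hp
  -- the function of the pieces
  obtain ⟨Wf, hWf⟩ : ∃ Wf : (Fin a × Fin Q → Fin a) → ℂ, Wf = fun y =>
      ∑ τ : Fin u → Equiv.Perm (Fin a), VV (fullForm l) l'
        (fun p => Sum.elim y (fun j => τ j (e p)) (fm p)) := ⟨_, rfl⟩
  have hWfst : Wf Prod.fst =
      ∑ τ : Fin u → Equiv.Perm (Fin a), VV (fullForm l) l' (sprU sp τ e) := by
    rw [hWf]
    simp only
    refine Finset.sum_congr rfl fun τ _ => ?_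
    congr 1
    funext p
    rcases hp : sp p with _ | k
    · rw [hfn p hp, hspr τ p hp]
      rfl
    · rw [hfs p k hp, hspr' τ p k hp]
      rfl
  rw [← hWfst]
  refine hCLS a q Q s d ty hs (by omega) hd (fun z => by rw [hQ z, cS]) Wf ?_ ?_ ?_
  · -- symmetry
    intro τ0 y
    rw [hWf]
    simp only
    rw [← Equiv.sum_comp (Equiv.mulLeft (fun _ : Fin u => τ0))]
    apply Finset.sum_congr rfl
    intro τ _
    rw [← VV_symm (fullForm_symm l) τ0 (fun p => Sum.elim y (fun j => τ j (e p)) (fm p))]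
    congr 1
    funext p
    rcases fm p with x | j
    · rfl
    · rfl
  · -- relation
    intro ρ hρ
    rw [hWf]
    simp only
    refine hGG n a q u G N Q l' hq hGq ε E hE l h0 e fm ty (cS (s * d)) gz ?_ ?_ ?_ ?_ hah ?_ gr
      ?_ ρ (fun r z => by rw [hρ r z, cS])
    · refine ⟨false, ?_⟩
      rw [cS, if_neg Bool.false_ne_true]
      omega
    · intro i κ
      rw [← hsize i κ, ← hbij i (fun t => lab i t = κ)]
      congr 1
      ext p
      rw [Finset.mem_filter, Finset.mem_filter, hfl]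
    · intro k
      have k1 : (univ.filter (fun p : Box l' => fm p = Sum.inr k)).card =
          (univ : Finset (Fin a)).card := by
        apply Finset.card_bij (fun p _ => e p)
        · intro p _
          exact Finset.mem_univ _
        · intro p hp p' hp' h
          exact h3 k p p' ((hfr _ k).1 (Finset.mem_filter.1 hp).2)
            ((hfr _ k).1 (Finset.mem_filter.1 hp').2) h
        · intro i _
          obtain ⟨p, hp1, hp2⟩ := h2 k i
          exact ⟨p, Finset.mem_filter.2 ⟨Finset.mem_univ _, hfs p k hp1⟩, hp2⟩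
      rw [k1, Finset.card_univ, Fintype.card_fin]
    · intro p p' k hp hp' h
      exact h3 k p p' ((hfr _ k).1 hp) ((hfr _ k).1 hp') h
    · rintro k ⟨i, κ⟩
      obtain ⟨t, ht, k1⟩ := hwin i k κ
      obtain ⟨⟨v, hv⟩, w', hw1, hw2⟩ := (Finset.mem_filter.1 ht).2
      exact ⟨t, v, w', hfs _ _ hv, (hfl _ _ _).2 ⟨⟨hw2, hw1⟩, k1⟩⟩
    · intro k k' hkk hgr
      obtain ⟨t, v, w', hv, hw'⟩ := h4 k k' hkk hgr
      exact ⟨t, v, w', hfs _ _ hv, hfs _ _ hw'⟩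
  · -- clique condition
    intro y hWy m
    rw [hWf] at hWy
    simp only at hWy
    obtain ⟨τ, _, hVy⟩ := Finset.exists_ne_zero_of_sum_ne_zero hWy
    by_contra hno
    push Not at hno
    obtain ⟨S, hS1, hS2⟩ := Finset.exists_subset_card_eq (Nat.succ_le_of_lt hno)
    have k1 := BK.sg_out_sum C ∅ (fun _ _ _ h => absurd h (Finset.notMem_empty _)) hC
      (X := X) (s := s) (by rw [Finset.card_empty, add_zero]; exact hN) S hS2
    have k2 : ∃ p ∈ S.offDiag, A ≤ (C p.1 ∩ C p.2).card := by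
      by_contra hno2
      push Not at hno2
      have hcard : S.offDiag.card = s * (s + 1) := by
        rw [Finset.offDiag_card, hS2]
        have k4 : s.succ * s.succ = s * (s + 1) + s.succ := by
          rw [Nat.succ_eq_add_one]
          ring
        rw [k4, Nat.add_sub_cancel]
      have hne : S.offDiag.Nonempty := by
        rw [← Finset.card_pos, hcard]
        exact Nat.mul_pos hs (by omega)
      have k3 : ∑ p ∈ S.offDiag, (C p.1 ∩ C p.2).card < ∑ _p ∈ S.offDiag, A :=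
        Finset.sum_lt_sum_of_nonempty hne hno2
      rw [Finset.sum_const, smul_eq_mul, hcard] at k3
      omega
    obtain ⟨⟨i, j⟩, hp, hA⟩ := k2
    rw [Finset.mem_offDiag] at hp
    obtain ⟨hi, hj, hij⟩ := hp
    simp only at hi hj hij hA
    obtain ⟨κ, hκ⟩ := (Finset.mem_filter.1 (hS1 hi)).2
    obtain ⟨κ', hκ'⟩ := (Finset.mem_filter.1 (hS1 hj)).2
    obtain ⟨t, ht, hl3, hl4⟩ := hpair i j hij hA κ κ'
    rw [Finset.mem_inter, hCm, hCm] at ht
    obtain ⟨⟨v, hv1, hv2⟩, v', hv3, hv4⟩ := ht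
    apply hVy
    refine VV_anti _ _ t (u := v) (v := v') ?_ ?_
    · intro h8
      apply hij
      rw [← hv2, ← hv4, h8]
    · have k5 : fm ⟨t, v⟩ = Sum.inl (i, κ) := (hfl _ _ _).2 ⟨⟨hv2, hv1⟩, hl3⟩
      have k6 : fm ⟨t, v'⟩ = Sum.inl (j, κ') := (hfl _ _ _).2 ⟨⟨hv4, hv3⟩, hl4⟩
      rw [k5, k6, Sum.elim_inl, Sum.elim_inl, hκ, hκ']

/-- **Row STAR.** -/
theorem rowSTAR (hGG : RowGG) (hCLS : GP.RowCLS) : RowSTAR := by
  intro n a q s u G D X N l' hs hq hua hGq ha hX hD hN ε E hE l h0 e sp gr h1 h2 h3 h4 h5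
  obtain ⟨k, hk⟩ : ∃ k, k = s * (18 * s ^ 5 * q ^ 2) := ⟨_, rfl⟩
  have hq1 : 1 ≤ q := by omega
  have hsR : (1 : ℝ) ≤ s := by exact_mod_cast hs
  have hqR : (1 : ℝ) ≤ q := by exact_mod_cast hq1
  have hs12 : (1 : ℝ) ≤ (s : ℝ) ^ 12 := one_le_pow₀ hsR
  have hq6 : (1 : ℝ) ≤ (q : ℝ) ^ 6 := one_le_pow₀ hqR
  have hZ : (1 : ℝ) ≤ (s : ℝ) ^ 12 * (q : ℝ) ^ 6 := one_le_mul_of_one_le_of_one_le hs12 hq6
  have ha1400 : 1400 ≤ a := by
    have k1 : 1 ≤ s ^ 12 * q ^ 4 := Nat.mul_pos (Nat.pow_pos hs) (Nat.pow_pos hq1)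
    have k2 : 1400 * s ^ 12 * q ^ 4 = 1400 * (s ^ 12 * q ^ 4) := by ring
    omega
  have haR : (1400 : ℝ) ≤ a := by exact_mod_cast ha1400
  have hL1 : 1 ≤ Real.log a := by
    rw [Real.le_log_iff_exp_le (by linarith)]
    have := Real.exp_one_lt_d9
    linarith
  have hL2 : Real.log ((2 * a : ℕ) : ℝ) ≤ 2 * Real.log a := by
    push_cast
    rw [Real.log_mul (by norm_num) (by linarith)]
    have := Real.log_le_log (by norm_num : (0 : ℝ) < 2) (by linarith : (2 : ℝ) ≤ a)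
    linarith
  obtain ⟨A, hA⟩ : ∃ A : ℕ, A = ⌈14000 * ((s : ℝ) ^ 12 * (q : ℝ) ^ 6) *
      Real.log ((2 * a : ℕ) : ℝ)⌉₊ := ⟨_, rfl⟩
  have hZL : 1 ≤ (s : ℝ) ^ 12 * (q : ℝ) ^ 6 * Real.log a :=
    one_le_mul_of_one_le_of_one_le hZ hL1
  have hL0 : 0 ≤ Real.log ((2 * a : ℕ) : ℝ) := by
    apply Real.log_nonneg
    push_cast
    linarith
  have hA1 : 14000 * ((s : ℝ) ^ 12 * (q : ℝ) ^ 6) * Real.log ((2 * a : ℕ) : ℝ) ≤ A := by
    rw [hA]
    exact Nat.le_ceil _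
  have hA2 : (A : ℝ) ≤ 29000 * ((s : ℝ) ^ 12 * (q : ℝ) ^ 6 * Real.log a) := by
    have k1 : (A : ℝ) < 14000 * ((s : ℝ) ^ 12 * (q : ℝ) ^ 6) *
        Real.log ((2 * a : ℕ) : ℝ) + 1 := by
      rw [hA]
      exact Nat.ceil_lt_add_one (by positivity)
    have k2 : 14000 * ((s : ℝ) ^ 12 * (q : ℝ) ^ 6) * Real.log ((2 * a : ℕ) : ℝ) ≤
        14000 * ((s : ℝ) ^ 12 * (q : ℝ) ^ 6) * (2 * Real.log a) :=
      mul_le_mul_of_nonneg_left hL2 (by positivity)
    linarith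
  have hAD : A ≤ D := by
    have k1 : (A : ℝ) ≤ D := by
      refine le_trans hA2 (le_trans ?_ hD)
      have k2 : 30000 * (s : ℝ) ^ 12 * (q : ℝ) ^ 6 * Real.log a =
          30000 * ((s : ℝ) ^ 12 * (q : ℝ) ^ 6 * Real.log a) := by ring
      rw [k2]
      linarith
    exact_mod_cast k1
  have hAX : s * (s + 1) * A ≤ 2 * X := by
    have k1 : ((s * (s + 1) * A : ℕ) : ℝ) ≤ ((2 * X : ℕ) : ℝ) := by
      push_cast
      have k2 : (s : ℝ) * (s + 1) ≤ 2 * (s : ℝ) ^ 2 := by nlinarith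
      calc (s : ℝ) * (s + 1) * A ≤ 2 * (s : ℝ) ^ 2 *
            (29000 * ((s : ℝ) ^ 12 * (q : ℝ) ^ 6 * Real.log a)) :=
            mul_le_mul k2 hA2 (Nat.cast_nonneg _) (by positivity)
        _ = 2 * (29000 * ((s : ℝ) ^ 14 * (q : ℝ) ^ 6 * Real.log a)) := by ring
        _ ≤ 2 * (30000 * (s : ℝ) ^ 14 * (q : ℝ) ^ 6 * Real.log a) := by
            have k3 : 0 ≤ (s : ℝ) ^ 14 * (q : ℝ) ^ 6 * Real.log a := by positivity
            linarith
        _ ≤ 2 * X := by linarith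
    exact_mod_cast k1
  have hnum0 := numA s q k (2 * a) A hs hq1 hk (by omega) (by linarith)
  have hx0 : (0 : ℝ) ≤ 1 - 1 / (2 * ((q * (2 * k + 1) : ℕ) : ℝ) ^ 2) := by
    have k1 : (1 : ℝ) ≤ ((q * (2 * k + 1) : ℕ) : ℝ) := by
      exact_mod_cast Nat.mul_pos hq1 (by omega : 0 < 2 * k + 1)
    have k2 : (1 : ℝ) ≤ ((q * (2 * k + 1) : ℕ) : ℝ) ^ 2 := one_le_pow₀ k1
    have k3 : 1 / (2 * ((q * (2 * k + 1) : ℕ) : ℝ) ^ 2) ≤ 1 := by
      rw [div_le_one (by linarith)]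
      linarith
    linarith
  have hnum : ((a + u : ℕ) : ℝ) ^ 2 * ((q * (2 * k + 1) : ℕ) : ℝ) ^ 2 *
      (1 - 1 / (2 * ((q * (2 * k + 1) : ℕ) : ℝ) ^ 2)) ^
        (A - 2 * (2 * k * (q * (2 * k + 1) + q))) < 1 := by
    refine lt_of_le_of_lt ?_ hnum0
    apply mul_le_mul_of_nonneg_right _ (pow_nonneg hx0 _)
    apply mul_le_mul_of_nonneg_right _ (by positivity)
    apply pow_le_pow_left₀ (Nat.cast_nonneg _)
    exact_mod_cast (by omega : a + u ≤ 2 * a)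
  have hkk : (2 * k + 1) * (2 * k + 1) ≤ a :=
    (GP.numG s q k a ⌈14000 * (s : ℝ) ^ 14 * (q : ℝ) ^ 6 * Real.log a⌉₊ hs hq1 hk ha
      (Nat.le_ceil _)).1
  obtain ⟨g, g', w, hag, hw, hg, hg', he⟩ := sizesS k q a hkk
  have hk1 : 1 ≤ k := by
    rw [hk]
    exact Nat.mul_pos hs (Nat.mul_pos (Nat.mul_pos (by norm_num) (pow_pos (by omega) 5))
      (pow_pos (by omega) 2))
  have hQ1 : 1 ≤ q * (2 * k + 1) := Nat.mul_pos hq1 (by omega)
  subst hk
  exact starCore hGG hCLS (s := s) (d := 18 * s ^ 5 * q ^ 2) (w := w) (X := X) (A := A) (D := D)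
    (tyS _ q) (gS g g') hs hq hGq le_rfl (by omega) hQ1 (card_tyS _ q)
    (by rw [cS, cS, gS, gS, if_pos rfl, if_pos rfl, if_neg Bool.false_ne_true,
      if_neg Bool.false_ne_true]; exact hag) hw (fun κ => by
      rw [gS]
      split_ifs
      · exact hg
      · exact hg') he hnum hAX hAD hN ε E hE l h0 e sp gr h1 h2 h3 h4 h5

end Vale.Agent.P181.H388
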